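import Vale.Agent.P227B.MainEB
import Vale.Agent.P227B.StmtB

namespace Vale.Agent.Results.P227.Blocks

open MeasureTheory Vale.Agent.P227
open scoped RealInnerProductSpace

theorem result (n k : ℕ) (E : Fin k → Type) [∀ j, NormedAddCommGroup (E j)]
    [∀ j, NormedSpace ℝ (E j)] [∀ j, FiniteDimensional ℝ (E j)]
    (T : (ℝ × ℝ) × (∀ j, E j) → EuclideanSpace ℝ (Fin n))
    (hT : IsLinearMap ℝ T) (hb : Function.Bijective T)
    (K L : Set (EuclideanSpace ℝ (Fin n))) (hK : IsSymBody K) (hL : IsSymBody L)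
    (hKr : BlockInv T K) (hLr : BlockInv T L) (t : ℝ) (h0 : 0 ≤ t) (h1 : t ≤ 1) :
    volume K ^ (1 - t) * volume L ^ t ≤ volume (logComb t K L) := by
  obtain ⟨hKc, hKv, hKi, hKs⟩ := hK
  obtain ⟨hLc, hLv, hLi, hLs⟩ := hL
  have hle : ∀ M : Set (EuclideanSpace ℝ (Fin n)), IsCompact M →
      ∀ u, ∀ x ∈ M, ⟪x, u⟫ ≤ supp M u := fun M hM u x hx =>
    le_csSup (hM.image (by fun_prop)).bddAbove ⟨x, hx, rfl⟩
  have hnn : ∀ M : Set (EuclideanSpace ℝ (Fin n)), IsCompact M → (interior M).Nonempty →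
      (∀ x ∈ M, -x ∈ M) → ∀ u, 0 ≤ supp M u := fun M hM hi hs u => by
    obtain ⟨x, hx⟩ := hi
    have h1 := hle M hM u x (interior_subset hx)
    have h2 := hle M hM u (-x) (hs x (interior_subset hx))
    rw [inner_neg_left] at h2
    linarith
  rcases h0.eq_or_lt with rfl | h0
  · simp only [sub_zero, ENNReal.rpow_one, ENNReal.rpow_zero, mul_one]
    refine measure_mono fun x hx u _ => ?_
    simpa using hle K hKc u x hx
  rcases h1.eq_or_lt with rfl | h1
  · simp only [sub_self, ENNReal.rpow_one, ENNReal.rpow_zero, one_mul]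
    refine measure_mono fun x hx u _ => ?_
    simpa using hle L hLc u x hx
  refine (mainEB (LinearEquiv.ofBijective (hT.mk' T) hb).toContinuousLinearEquiv hKc hLc hKv hLv hKs hLs hKr hLr (a := 1 - t) (b := t) (by linarith) h0
    (by ring)).trans (measure_mono fun x hx u _ => ?_)
  have := hx (innerSL ℝ u) (supp K u) (supp L u) (hnn K hKc hKi hKs u) (hnn L hLc hLi hLs u)
    (fun y hy => by simpa [real_inner_comm] using hle K hKc u y hy)
    (fun y hy => by simpa [real_inner_comm] using hle L hLc u y hy)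
  simpa [real_inner_comm] using this

end Vale.Agent.Results.P227.Blocks
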