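import Vale.Agent.P227.MainE

namespace Vale.Agent.Results.P227.FewMirrors

open MeasureTheory Vale.Agent.P227
open scoped RealInnerProductSpace

theorem result (n : ℕ) (hn : 2 ≤ n) (e : Module.Basis (Fin n) ℝ (EuclideanSpace ℝ (Fin n)))
    (K L : Set (EuclideanSpace ℝ (Fin n)))
    (hKc : IsCompact K) (hKv : Convex ℝ K) (hKi : (interior K).Nonempty) (hKs : ∀ x ∈ K, -x ∈ K)
    (hLc : IsCompact L) (hLv : Convex ℝ L) (hLi : (interior L).Nonempty) (hLs : ∀ x ∈ L, -x ∈ L)
    (hKr : ∀ i : Fin n, 2 ≤ i.val → ∀ x ∈ K, x - (2 * e.repr x i) • e i ∈ K)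
    (hLr : ∀ i : Fin n, 2 ≤ i.val → ∀ x ∈ L, x - (2 * e.repr x i) • e i ∈ L)
    (t : ℝ) (h0 : 0 ≤ t) (h1 : t ≤ 1) :
    volume K ^ (1 - t) * volume L ^ t ≤ volume (logComb t K L) := by
  obtain ⟨m, rfl⟩ : ∃ m, n = m + 2 := ⟨n - 2, by omega⟩
  have hle : ∀ M : Set (EuclideanSpace ℝ (Fin (m + 2))), IsCompact M →
      ∀ u, ∀ x ∈ M, ⟪x, u⟫ ≤ supp M u := fun M hM u x hx =>
    le_csSup (hM.image (by fun_prop)).bddAbove ⟨x, hx, rfl⟩
  have hnn : ∀ M : Set (EuclideanSpace ℝ (Fin (m + 2))), IsCompact M → (interior M).Nonempty →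
      (∀ x ∈ M, -x ∈ M) → ∀ u, 0 ≤ supp M u := fun M hM hi hs u => by
    obtain ⟨x, hx⟩ := hi
    have h1 := hle M hM u x (interior_subset hx)
    have h2 := hle M hM u (-x) (hs x (interior_subset hx))
    rw [inner_neg_left] at h2
    linarith
  rcases h0.eq_or_lt with rfl | h0
  · simp only [sub_zero, ENNReal.rpow_one, ENNReal.rpow_zero, mul_one]
    refine measure_mono fun x hx u _ => ?_
    simpa using hle K hKc u x hx
  rcases h1.eq_or_lt with rfl | h1
  · simp only [sub_self, ENNReal.rpow_one, ENNReal.rpow_zero, one_mul]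
    refine measure_mono fun x hx u _ => ?_
    simpa using hle L hLc u x hx
  refine (mainE e hKc hLc hKv hLv hKs hLs hKr hLr (a := 1 - t) (b := t) (by linarith) h0
    (by ring)).trans (measure_mono fun x hx u _ => ?_)
  have := hx (innerSL ℝ u) (supp K u) (supp L u) (hnn K hKc hKi hKs u) (hnn L hLc hLi hLs u)
    (fun y hy => by simpa [real_inner_comm] using hle K hKc u y hy)
    (fun y hy => by simpa [real_inner_comm] using hle L hLc u y hy)
  simpa [real_inner_comm] using this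

end Vale.Agent.Results.P227.FewMirrors
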